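import Vale.Agent.P163.Final
import Vale.Agent.P163.Exist

open MeasureTheory Vale.Agent.P163

/-- Exponential decay of the two-point function of the two-dimensional O(n) model, n ≥ 3, at every
inverse temperature, in every infinite-volume state (such states exist). -/
theorem Vale.Agent.Results.P163.A_full.result (n : ℕ) (hn : 3 ≤ n) (β : ℝ) (hβ : 0 < β) :
    (∃ μ : Measure (Cfg n), IsState n β μ) ∧
    ∃ C m : ℝ, 0 < m ∧ ∀ μ : Measure (Cfg n), IsState n β μ → ∀ x y : ℤ × ℤ,
      ∫ σ, dot σ x y ∂μ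
        ≤ C * Real.exp (-m * Real.sqrt (((x.1 : ℝ) - y.1) ^ 2 + ((x.2 : ℝ) - y.2) ^ 2)) := by
  have : NeZero n := ⟨by omega⟩
  exact ⟨exists_state n β, main n hn β hβ⟩
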